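import Vale.Agent.P171.Main

open MeasureTheory Filter Topology Vale.Agent.P171

/-- There is a Borel measurable, locally bounded, stable and tempered radial pair potential on
three-dimensional space whose pressure `z ↦ Π(1, z)` exists as the limit of the problem and is not
differentiable at some activity `z > 0`: a phase transition in the sense (a). -/
theorem Vale.Agent.Results.P171.A0_PhaseTransition.result :
    ∃ φ : ℝ → ℝ, Measurable φ ∧ LocBdd φ ∧ Stable φ ∧ Tempered φ ∧
      (∀ (L : ℝ) (N : ℕ), IntegrableOn (fun x : Fin N → E3 => Real.exp (-(1 * U φ N x)))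
        (Set.pi Set.univ (fun _ : Fin N => cube L))) ∧
      (∀ (L z : ℝ), 0 < z → Summable (fun N : ℕ => z ^ N * Zc φ 1 L N)) ∧
      ∃ P : ℝ → ℝ, IsPressure φ 1 P ∧ ∃ z, 0 < z ∧ ¬ DifferentiableAt ℝ P z :=
  main_theorem
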