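import Vale.Agent.P171.MainReg

open MeasureTheory Filter Topology Vale.Agent.P171

/-- There is a Borel measurable, locally bounded, stable and tempered radial pair potential on
three-dimensional space, moreover bounded below, non-positive beyond distance one, absolutely
integrable at infinity and regular in the sense of Ruelle, whose pressure `z ↦ Π(1, z)` exists as
the limit of the problem and is not differentiable at some activity `z > 0`. -/
theorem Vale.Agent.Results.P171.A1_PhaseTransitionRegular.result :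
    ∃ φ : ℝ → ℝ, Measurable φ ∧ LocBdd φ ∧ Stable φ ∧ Tempered φ ∧
      (∃ M : ℝ, ∀ r, -M ≤ φ r) ∧ (∀ r, 1 ≤ r → φ r ≤ 0) ∧
      IntegrableOn (fun x : E3 => φ ‖x‖) {x | 1 ≤ ‖x‖} ∧
      Integrable (fun x : E3 => Real.exp (-(1 * φ ‖x‖)) - 1) ∧
      (∀ (L : ℝ) (N : ℕ), IntegrableOn (fun x : Fin N → E3 => Real.exp (-(1 * U φ N x)))
        (Set.pi Set.univ (fun _ : Fin N => cube L))) ∧
      (∀ (L z : ℝ), 0 < z → Summable (fun N : ℕ => z ^ N * Zc φ 1 L N)) ∧
      ∃ P : ℝ → ℝ, IsPressure φ 1 P ∧ ∃ z, 0 < z ∧ ¬ DifferentiableAt ℝ P z :=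
  main_theorem_regular
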