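import Vale.Agent.Results.P171.A0_PhaseTransition

open MeasureTheory Filter Topology Vale.Agent.P171

/-- It is not true that every Borel measurable, locally bounded, stable and tempered radial pair
potential on three-dimensional space is free of phase transitions in the sense (a). The universal
statement that is refuted says: for every such potential and every `β > 0` for which all the
partition integrals and grand canonical series converge, every function `P` that is the limit
`Π(β, ·)` of the problem is differentiable at every `z > 0`. -/
theorem Vale.Agent.Results.P171.A2_NotAllTransitionFree.result :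
    ¬ ∀ φ : ℝ → ℝ, Measurable φ → LocBdd φ → Stable φ → Tempered φ →
      ∀ β : ℝ, 0 < β →
      (∀ (L : ℝ) (N : ℕ), IntegrableOn (fun x : Fin N → E3 => Real.exp (-(β * U φ N x)))
        (Set.pi Set.univ (fun _ : Fin N => cube L))) →
      (∀ (L z : ℝ), 0 < z → Summable (fun N : ℕ => z ^ N * Zc φ β L N)) →
      ∀ P : ℝ → ℝ, IsPressure φ β P → ∀ z : ℝ, 0 < z → DifferentiableAt ℝ P z := by
  intro h
  obtain ⟨φ, h1, h2, h3, h4, h5, h6, P, hP, z, hz, hnd⟩ :=
    Vale.Agent.Results.P171.A0_PhaseTransition.result
  exact hnd (h φ h1 h2 h3 h4 1 one_pos h5 h6 P hP z hz)
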